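import Vale.Agent.P064.Graph

namespace Vale.Agent.Results.P064.SecondKK
open Vale.Agent.P064

theorem result : ∃ C : ℝ, ∀ n : ℕ, 2 ≤ n → ∀ (V : Type) [Fintype V] (H : SimpleGraph V),
    Fintype.card V ≤ n → H.edgeSet.Nonempty → pc n H ≤ C * pE n H * Real.log n :=
  ⟨96 * Real.exp 40, fun _ hn _ _ H hV hH => main H hn hV hH⟩

end Vale.Agent.Results.P064.SecondKK
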